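import Vale.Agent.Lib.P064.Final3

namespace Vale.Agent.Results.P064.A_logn

open Real

/-- If all subgraphs of `H` have expected count at least `1/2` at density `q`, then
`N(H,F) ≤ E N(G(n, min{1, C q log n}), F)` for every subgraph `F` of `H`; consequently
`p̃_E(n,H) ≤ C (log n) p_E(n,H)`. -/
theorem result : ∃ C : ℝ, 0 < C ∧ ∀ n : ℕ, 2 ≤ n →
    ∀ (V : Type) [Fintype V] (H : SimpleGraph V), Fintype.card V ≤ n →
      (∀ q ∈ Vale.Agent.Lib.P064.pESet n H, ∀ F : H.Subgraph,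
        (H.copyCount F.coe : ℝ) ≤ Vale.Agent.Lib.P064.expCopies n (min 1 (C * log n * q)) F.coe) ∧
      Vale.Agent.Lib.P064.pTildeE n H ≤ C * log n * Vale.Agent.Lib.P064.pE n H :=
  Vale.Agent.Lib.P064.main_thm

end Vale.Agent.Results.P064.A_logn
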